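import Mathlib
import Vale.Agent.P121.Defs
import Vale.Agent.P121.Density

open MeasureTheory Vale.Agent.P121
open scoped ENNReal NNReal

theorem Vale.Agent.Results.P121.Disproof.result :
    ¬ ∀ μ : Measure (EuclideanSpace ℝ (Fin 3)), IsProbabilityMeasure μ → μ ≪ volume →
      kantorovichValue μ < ⊤ →
      ∃ π : Measure (EuclideanSpace ℝ (Fin 3) × EuclideanSpace ℝ (Fin 3) ×
        EuclideanSpace ℝ (Fin 3)), IsMongePlan μ π ∧ planCost π = kantorovichValue μ := by
  intro hall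
  let R : EuclideanSpace ℝ (Fin 3) ≃ₗᵢ[ℝ] EuclideanSpace ℝ (Fin 3) :=
    LinearIsometryEquiv.piLpCongrLeft 2 ℝ ℝ (Equiv.swap 0 1)
  let e : EuclideanSpace ℝ (Fin 3) := EuclideanSpace.single 0 1
  have he : ‖e‖ = 1 := by simp [e]
  have hR : inner ℝ (R e) e = 0 := by
    have h1 : R e = EuclideanSpace.single 1 1 := by
      simp [R, e]
    rw [h1]
    simp [e, EuclideanSpace.inner_single_left]
  obtain ⟨μ, h1, ⟨C, h2⟩, h3, h4, h5⟩ := exists_measure R e he hR
  exact h5 (hall μ h1 (Measure.absolutelyContinuous_of_le_smul (c := (C : ℝ≥0∞)) h2) h4)
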