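import Mathlib
import Vale.Agent.P121.Defs
import Vale.Agent.P121.Density

open MeasureTheory Vale.Agent.P121
open scoped ENNReal NNReal

theorem Vale.Agent.Results.P121.NoOptimalMonge.result (d : ℕ) (hd : 2 ≤ d) :
    ∃ μ : Measure (EuclideanSpace ℝ (Fin d)), IsProbabilityMeasure μ ∧
      μ ≪ volume ∧ (∃ C : ℝ≥0, μ ≤ C • volume) ∧ (∃ K, IsCompact K ∧ μ Kᶜ = 0) ∧
      kantorovichValue μ < ⊤ ∧
      ¬ ∃ π, IsMongePlan μ π ∧ planCost π = kantorovichValue μ := by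
  obtain ⟨i0, i1, hne⟩ : ∃ i0 i1 : Fin d, i0 ≠ i1 :=
    ⟨⟨0, by omega⟩, ⟨1, by omega⟩, by simp⟩
  let R : EuclideanSpace ℝ (Fin d) ≃ₗᵢ[ℝ] EuclideanSpace ℝ (Fin d) :=
    LinearIsometryEquiv.piLpCongrLeft 2 ℝ ℝ (Equiv.swap i0 i1)
  let e : EuclideanSpace ℝ (Fin d) := EuclideanSpace.single i0 1
  have he : ‖e‖ = 1 := by simp [e]
  have hR : inner ℝ (R e) e = 0 := by
    have h1 : R e = EuclideanSpace.single i1 1 := by
      simp [R, e]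
    rw [h1]
    simp [e, hne, EuclideanSpace.inner_single_left]
  obtain ⟨μ, h1, ⟨C, h2⟩, h3, h4, h5⟩ := exists_measure R e he hR
  refine ⟨μ, h1, ?_, ⟨C, h2⟩, h3, h4, h5⟩
  exact Measure.absolutelyContinuous_of_le_smul (c := (C : ℝ≥0∞)) h2
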